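import Mathlib
import Vale.Agent.Lib.P199.LocFin

namespace Vale.Agent.Results.P199.CyclicExtensions

universe u

/-- Kurosh's problem over fields all of whose finite extensions are cyclic (no hypothesis on `-1`):
every division ring `D` algebraic over the central subfield `F` is locally finite; moreover `D` is
commutative, or `F` is formally real and `D` is of quaternion type over the commutative
centraliser of a square root of `-1`. -/
theorem result {F D : Type u} [Field F] [DivisionRing D] [Algebra F D] [Algebra.IsAlgebraic F D]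
    (hcyc : ∀ (K : Type u) [Field K] [Algebra F K] [FiniteDimensional F K],
      IsGalois F K ∧ IsCyclic (K ≃ₐ[F] K)) :
    (∀ S : Finset D, FiniteDimensional F (Algebra.adjoin F (S : Set D))) ∧
      ((∀ x y : D, x * y = y * x) ∨
        (¬ IsSumSq (-1 : F) ∧ ∃ w k : D, w ^ 2 = -1 ∧ k ≠ 0 ∧ w * k = -(k * w) ∧
          (∀ x y : D, w * x = x * w → w * y = y * w → x * y = y * x) ∧
          ∀ x : D, ∃ c₁ c₂ : D, w * c₁ = c₁ * w ∧ w * c₂ = c₂ * w ∧ x = c₁ + k * c₂)) := by
  refine ⟨fun S => Module.Finite.iff_fg.mpr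
    (Vale.Agent.P199.locallyFinite_of_allCyclic hcyc S), ?_⟩
  by_cases hc : ∀ x y : D, x * y = y * x
  · exact Or.inl hc
  · right
    refine ⟨fun hsq => hc (Vale.Agent.P199.comm_of_allCyclic hcyc hsq), ?_⟩
    push Not at hc
    obtain ⟨y, a, hya⟩ := hc
    obtain ⟨two, w, k, hw, hk0, hwk, hC, hdec⟩ := Vale.Agent.P199.quat_structure hcyc y a hya
    refine ⟨w, k, hw, hk0, hwk, hC, fun x => ?_⟩
    obtain ⟨c₁, c₂, h1, h2, h3⟩ := hdec (2⁻¹ * x)
    refine ⟨c₁, c₂, h1, h2, ?_⟩
    rw [← h3, ← mul_assoc, mul_inv_cancel₀ two, one_mul]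

end Vale.Agent.Results.P199.CyclicExtensions
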