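import Mathlib
import Vale.Agent.Lib.P199.Conj
open Polynomial

namespace Vale.Agent.Results.P199.GaloisJacobson

universe u v

/-- Kurosh's problem over base fields `F` such that every finite extension of `F` is Galois and
every finite-dimensional division `F`-algebra is commutative: every division ring `D` algebraic
over the central subfield `F` is commutative and locally finite. -/
theorem result {F : Type u} {D : Type v} [Field F] [DivisionRing D] [Algebra F D]
    [Algebra.IsAlgebraic F D]
    (hBr : ∀ (E : Type v) [DivisionRing E] [Algebra F E] [FiniteDimensional F E],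
      ∀ x y : E, x * y = y * x)
    (hGal : ∀ (K : Type u) [Field K] [Algebra F K] [FiniteDimensional F K], IsGalois F K) :
    (∀ x y : D, x * y = y * x) ∧
      ∀ S : Finset D, FiniteDimensional F (Algebra.adjoin F (S : Set D)) := by
  have hcomm : ∀ x y : D, x * y = y * x := by
    by_contra hcon
    push Not at hcon
    obtain ⟨y, a, hya⟩ := hcon
    have ha : IsIntegral F a := (Algebra.IsAlgebraic.isAlgebraic a).isIntegral
    set f := minpoly F a with hf
    have hirr : Irreducible f := minpoly.irreducible ha
    have : Fact (Irreducible f) := ⟨hirr⟩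
    let K := AdjoinRoot f
    have : FiniteDimensional F K := (AdjoinRoot.powerBasis hirr.ne_zero).finite
    have hG : IsGalois F K := hGal K
    let φ : K →ₐ[F] D := Ideal.Quotient.liftₐ (Ideal.span {f}) (aeval a) (by
      intro p hp
      obtain ⟨q, rfl⟩ := Ideal.mem_span_singleton.mp hp
      simp [hf])
    have hφ : ∀ p : F[X], φ (AdjoinRoot.mk f p) = aeval a p := fun p => rfl
    have hθ : φ (AdjoinRoot.root f) = a := by
      have := hφ X
      simpa using this
    have hmin : minpoly F (AdjoinRoot.root f) = f := by
      rw [AdjoinRoot.minpoly_root hirr.ne_zero, (minpoly.monic ha).leadingCoeff]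
      simp
    have hsep : f.Separable := by
      have := Algebra.IsSeparable.isSeparable F (AdjoinRoot.root f)
      rwa [IsSeparable, hmin] at this
    have hsplit : (f.map (algebraMap F K)).Splits := by
      have := (IsGalois.to_normal (F := F) (E := K)).splits (AdjoinRoot.root f)
      rwa [hmin] at this
    obtain ⟨r, z, hz, hza, hne⟩ :=
      Vale.Agent.P199.exists_conj φ (AdjoinRoot.root f) a y hθ hya ha hsep hsplit
    obtain ⟨p, rfl⟩ := AdjoinRoot.mk_surjective r
    rw [hφ] at hza hne
    have hzi : IsIntegral F z := (Algebra.IsAlgebraic.isAlgebraic z).isIntegral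
    have hfg := Vale.Agent.P199.fg_adjoin_pair a z p ha hzi hza
    let E := Algebra.adjoin F {a, z}
    have : FiniteDimensional F E := Module.Finite.iff_fg.mpr hfg
    let _ : DivisionRing E := divisionRingOfFiniteDimensional F E
    have hc := hBr E ⟨z, Algebra.subset_adjoin (by simp)⟩ ⟨a, Algebra.subset_adjoin (by simp)⟩
    have hc' : z * a = a * z := congrArg Subtype.val hc
    rw [hza] at hc'
    exact hne (mul_right_cancel₀ hz hc')
  refine ⟨hcomm, fun S => ?_⟩
  let _ : CommRing D := { (inferInstance : Ring D) with mul_comm := hcomm }
  have := fg_adjoin_of_finite (R := F) (A := D) (s := (S : Set D)) S.finite_toSet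
    (fun x _ => (Algebra.IsAlgebraic.isAlgebraic x).isIntegral)
  exact Module.Finite.iff_fg.mpr this

end Vale.Agent.Results.P199.GaloisJacobson
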