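import Mathlib
import Vale.Agent.Lib.P199.Assemble

namespace Vale.Agent.Results.P199.Procyclic

universe u

/-- Kurosh's problem over fields with procyclic absolute Galois group: if every finite extension
of `F` is Galois with cyclic group and `-1` is a sum of squares in `F`, then every division ring
`D` algebraic over the central subfield `F` is commutative, hence locally finite. -/
theorem result {F D : Type u} [Field F] [DivisionRing D] [Algebra F D] [Algebra.IsAlgebraic F D]
    (hcyc : ∀ (K : Type u) [Field K] [Algebra F K] [FiniteDimensional F K],
      IsGalois F K ∧ IsCyclic (K ≃ₐ[F] K))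
    (hsq : IsSumSq (-1 : F)) :
    (∀ x y : D, x * y = y * x) ∧
      ∀ S : Finset D, FiniteDimensional F (Algebra.adjoin F (S : Set D)) := by
  have hcomm : ∀ x y : D, x * y = y * x := Vale.Agent.P199.comm_of_allCyclic hcyc hsq
  refine ⟨hcomm, fun S => ?_⟩
  let _ : CommRing D := { (inferInstance : Ring D) with mul_comm := hcomm }
  have := fg_adjoin_of_finite (R := F) (A := D) (s := (S : Set D)) S.finite_toSet
    (fun x _ => (Algebra.IsAlgebraic.isAlgebraic x).isIntegral)
  exact Module.Finite.iff_fg.mpr this

end Vale.Agent.Results.P199.Procyclic
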